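import Vale.Agent.P146.Defs

/-!
# P146: the law of the scaled disorder and the probability of a scaled event
-/

open MeasureTheory ProbabilityTheory

namespace Vale.Agent.P146.R2.H639

open Vale.Agent.P146

/-- the density of `N(0, c ^ 2)` with respect to `N(0, 1)` -/
noncomputable def rho (c y : ℝ) : ℝ := c⁻¹ * Real.exp (-((c⁻¹ ^ 2 - 1) / 2) * y ^ 2)

lemma rho_nonneg {c : ℝ} (hc : 0 < c) (y : ℝ) : 0 ≤ rho c y := by
  unfold rho; positivity

lemma measurable_rho (c : ℝ) : Measurable (rho c) := by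
  unfold rho; fun_prop

lemma rho_le {c : ℝ} (hc : 0 < c) (h1 : c ≤ 1) (y : ℝ) : rho c y ≤ c⁻¹ := by
  unfold rho
  have h : 1 ≤ c⁻¹ := (one_le_inv₀ hc).2 h1
  have h4 : 1 ≤ c⁻¹ ^ 2 := one_le_pow₀ h
  have h5 : 0 ≤ (c⁻¹ ^ 2 - 1) / 2 := by linarith
  have h2 : -((c⁻¹ ^ 2 - 1) / 2) * y ^ 2 ≤ 0 := by linarith [mul_nonneg h5 (sq_nonneg y)]
  have h3 := Real.exp_le_one_iff.2 h2
  calc c⁻¹ * _ ≤ c⁻¹ * 1 := by gcongr
    _ = c⁻¹ := mul_one _

lemma rho_mul {c : ℝ} (hc : 0 < c) (y : ℝ) :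
    gaussianPDFReal 0 1 y * rho c y = gaussianPDFReal 0 (.mk (c ^ 2) (sq_nonneg _)) y := by
  unfold rho gaussianPDFReal
  simp only [NNReal.coe_one, NNReal.coe_mk, sub_zero, mul_one]
  have h1 : Real.sqrt (2 * Real.pi * c ^ 2) = Real.sqrt (2 * Real.pi) * c := by
    rw [Real.sqrt_mul (by positivity), Real.sqrt_sq hc.le]
  rw [h1, mul_inv]
  have h2 : Real.exp (-y ^ 2 / (2 * c ^ 2)) =
      Real.exp (-y ^ 2 / 2) * Real.exp (-((c⁻¹ ^ 2 - 1) / 2) * y ^ 2) := by
    rw [← Real.exp_add]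
    congr 1
    field_simp
    ring
  rw [h2]
  ring

/-- the law of `c * g` -/
lemma map_eq {c : ℝ} (hc : 0 < c) {s : Set ℝ} (hs : MeasurableSet s) :
    ((gaussianReal 0 1).map (c * ·)) s =
      ENNReal.ofReal (∫ y in s, rho c y ∂(gaussianReal 0 1)) := by
  rw [gaussianReal_map_const_mul, mul_zero, mul_one]
  have hv : (NNReal.mk (c ^ 2) (sq_nonneg c) : NNReal) ≠ 0 := by
    intro h
    have := congrArg NNReal.toReal h
    simp only [NNReal.coe_mk, NNReal.coe_zero] at this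
    exact (pow_pos hc 2).ne' this
  rw [gaussianReal_apply_eq_integral _ hv s]
  congr 1
  rw [← integral_indicator hs, ← integral_indicator hs,
    integral_gaussianReal_eq_integral_smul one_ne_zero]
  refine integral_congr_ae (Filter.Eventually.of_forall fun y => ?_)
  by_cases h : y ∈ s
  · simp only [Set.indicator_of_mem h, smul_eq_mul]
    rw [← rho_mul hc]
  · simp only [Set.indicator_of_notMem h, smul_zero]

lemma int_rho_sq {c : ℝ} (hc : 0 < c) (h1 : c ≤ 1) :
    ∫ y, rho c y ^ 2 ∂(gaussianReal 0 1) = (Real.sqrt (c ^ 2 * (2 - c ^ 2)))⁻¹ := by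
  rw [integral_gaussianReal_eq_integral_smul one_ne_zero]
  have hb : 0 < c⁻¹ ^ 2 - 1 / 2 := by
    have h : 1 ≤ c⁻¹ := (one_le_inv₀ hc).2 h1
    nlinarith
  have h2 : ∀ y : ℝ, gaussianPDFReal 0 1 y • rho c y ^ 2 =
      ((Real.sqrt (2 * Real.pi))⁻¹ * c⁻¹ ^ 2) * Real.exp (-(c⁻¹ ^ 2 - 1 / 2) * y ^ 2) := by
    intro y
    unfold rho gaussianPDFReal
    simp only [NNReal.coe_one, sub_zero, mul_one, smul_eq_mul]
    rw [mul_pow, ← Real.exp_nat_mul]
    have : Real.exp (-y ^ 2 / 2) * Real.exp ((2 : ℕ) * (-((c⁻¹ ^ 2 - 1) / 2) * y ^ 2)) =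
        Real.exp (-(c⁻¹ ^ 2 - 1 / 2) * y ^ 2) := by
      rw [← Real.exp_add]
      congr 1
      push_cast
      ring
    rw [← this]
    ring
  simp_rw [h2]
  rw [integral_const_mul, integral_gaussian]
  have hc2 : c ^ 2 ≤ 1 := by nlinarith
  have e1 : c⁻¹ ^ 2 - 1 / 2 = (2 - c ^ 2) / (2 * c ^ 2) := by
    field_simp
  have h3 : 0 < 2 - c ^ 2 := by linarith
  have e2 : Real.pi / (c⁻¹ ^ 2 - 1 / 2) = (2 * Real.pi) * (c ^ 2 / (2 - c ^ 2)) := by
    rw [e1]; field_simp
  rw [e2, Real.sqrt_mul (by positivity : (0 : ℝ) ≤ 2 * Real.pi) (c ^ 2 / (2 - c ^ 2)),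
    Real.sqrt_div (by positivity : (0 : ℝ) ≤ c ^ 2), Real.sqrt_sq hc.le,
    Real.sqrt_mul (by positivity : (0 : ℝ) ≤ c ^ 2) (2 - c ^ 2), Real.sqrt_sq hc.le]
  have hs : Real.sqrt (2 * Real.pi) ≠ 0 := (Real.sqrt_pos.2 (by positivity)).ne'
  have hs2 : Real.sqrt (2 - c ^ 2) ≠ 0 := (Real.sqrt_pos.2 h3).ne'
  field_simp

lemma int_rho_sq_le {d : ℝ} (h0 : 0 ≤ d) (h1 : d ≤ 1 / 4) :
    ∫ y, rho (1 - d) y ^ 2 ∂(gaussianReal 0 1) ≤ Real.exp (4 * d ^ 2) := by
  rw [int_rho_sq (by linarith) (by linarith)]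
  have h2 : 1 - 4 * d ^ 2 ≤ (1 - d) ^ 2 * (2 - (1 - d) ^ 2) := by
    have e : (1 - d) ^ 2 * (2 - (1 - d) ^ 2) = 1 - (2 * d - d ^ 2) ^ 2 := by ring
    have e2 : (2 * d - d ^ 2) ^ 2 ≤ (2 * d) ^ 2 :=
      pow_le_pow_left₀ (by nlinarith) (by nlinarith [sq_nonneg d]) 2
    rw [e]
    nlinarith
  have h3 : (0 : ℝ) < 1 - 4 * d ^ 2 := by nlinarith
  have h4 : 1 ≤ Real.exp (8 * d ^ 2) * ((1 - d) ^ 2 * (2 - (1 - d) ^ 2)) := by
    have h5 : 1 + 8 * d ^ 2 ≤ Real.exp (8 * d ^ 2) := by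
      have := Real.add_one_le_exp (8 * d ^ 2); linarith
    have hd : d ^ 2 ≤ 1 / 16 := by nlinarith
    have h6 : 1 ≤ (1 + 8 * d ^ 2) * (1 - 4 * d ^ 2) := by nlinarith [sq_nonneg d]
    calc (1 : ℝ) ≤ (1 + 8 * d ^ 2) * (1 - 4 * d ^ 2) := h6
      _ ≤ _ := mul_le_mul h5 h2 h3.le (Real.exp_pos _).le
  have h5 : 0 < (1 - d) ^ 2 * (2 - (1 - d) ^ 2) := h3.trans_le h2
  rw [inv_le_comm₀ (Real.sqrt_pos.2 h5) (Real.exp_pos _), ← Real.exp_neg]
  refine Real.le_sqrt_of_sq_le ?_
  rw [← Real.exp_nat_mul]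
  have h7 : Real.exp ((2 : ℕ) * -(4 * d ^ 2)) * Real.exp (8 * d ^ 2) = 1 := by
    rw [← Real.exp_add]
    have : ((2 : ℕ) : ℝ) * -(4 * d ^ 2) + 8 * d ^ 2 = 0 := by push_cast; ring
    rw [this, Real.exp_zero]
  have h8 := Real.exp_pos ((2 : ℕ) * -(4 * d ^ 2))
  calc Real.exp ((2 : ℕ) * -(4 * d ^ 2)) = Real.exp ((2 : ℕ) * -(4 * d ^ 2)) * 1 := (mul_one _).symm
    _ ≤ Real.exp ((2 : ℕ) * -(4 * d ^ 2)) *
        (Real.exp (8 * d ^ 2) * ((1 - d) ^ 2 * (2 - (1 - d) ^ 2))) := by gcongr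
    _ = (1 - d) ^ 2 * (2 - (1 - d) ^ 2) := by rw [← mul_assoc, h7, one_mul]

section pi

variable {ι : Type*} [Fintype ι]

/-- the density of the scaled Gaussian measure -/
noncomputable def dens (c : ℝ) (g : ι → ℝ) : ℝ := ∏ i, rho c (g i)

lemma dens_nonneg {c : ℝ} (hc : 0 < c) (g : ι → ℝ) : 0 ≤ dens c g :=
  Finset.prod_nonneg fun _ _ => rho_nonneg hc _

lemma measurable_dens (c : ℝ) : Measurable (dens c : (ι → ℝ) → ℝ) := by
  unfold dens
  exact Finset.measurable_prod _ fun i _ => (measurable_rho c).comp (measurable_pi_apply i)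

lemma dens_le {c : ℝ} (hc : 0 < c) (h1 : c ≤ 1) (g : ι → ℝ) :
    dens c g ≤ c⁻¹ ^ Fintype.card ι := by
  unfold dens
  calc ∏ i, rho c (g i) ≤ ∏ _i : ι, c⁻¹ :=
        Finset.prod_le_prod (fun _ _ => rho_nonneg hc _) fun _ _ => rho_le hc h1 _
    _ = _ := by rw [Finset.prod_const, Finset.card_univ]

lemma integrable_dens {c : ℝ} (hc : 0 < c) (h1 : c ≤ 1) :
    Integrable (dens c) (Measure.pi fun _ : ι => gaussianReal 0 1) :=
  Integrable.of_bound (measurable_dens c).aestronglyMeasurable (c⁻¹ ^ Fintype.card ι)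
    (Filter.Eventually.of_forall fun g => by
      rw [Real.norm_of_nonneg (dens_nonneg hc g)]; exact dens_le hc h1 g)

lemma integrable_dens_sq {c : ℝ} (hc : 0 < c) (h1 : c ≤ 1) :
    Integrable (fun g => dens c g ^ 2) (Measure.pi fun _ : ι => gaussianReal 0 1) :=
  Integrable.of_bound ((measurable_dens c).pow_const 2).aestronglyMeasurable
    ((c⁻¹ ^ Fintype.card ι) ^ 2)
    (Filter.Eventually.of_forall fun g => by
      rw [Real.norm_of_nonneg (sq_nonneg _)]
      exact pow_le_pow_left₀ (dens_nonneg hc g) (dens_le hc h1 g) 2)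

lemma pi_scaled {c : ℝ} (hc : 0 < c) (h1 : c ≤ 1) :
    (Measure.pi fun _ : ι => gaussianReal 0 1).map (fun g i => c * g i) =
      (Measure.pi fun _ : ι => gaussianReal 0 1).withDensity
        (fun g => ENNReal.ofReal (dens c g)) := by
  have hm : Measurable (fun y : ℝ => c * y) := measurable_const_mul c
  have : IsProbabilityMeasure ((gaussianReal 0 1).map fun y : ℝ => c * y) :=
    Measure.isProbabilityMeasure_map hm.aemeasurable
  have e1 : (Measure.pi fun _ : ι => gaussianReal 0 1).map (fun g i => c * g i) =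
      Measure.pi fun _ : ι => (gaussianReal 0 1).map (fun y : ℝ => c * y) :=
    Measure.pi_map_pi (μ := fun _ : ι => gaussianReal 0 1) (f := fun _ (y : ℝ) => c * y)
      fun _ => hm.aemeasurable
  rw [e1]
  refine Measure.pi_eq fun s hs => ?_
  rw [withDensity_apply _ (MeasurableSet.univ_pi hs),
    ← ofReal_integral_eq_lintegral_ofReal (integrable_dens hc h1).integrableOn
      (Filter.Eventually.of_forall fun g => dens_nonneg hc g),
    ← integral_indicator (MeasurableSet.univ_pi hs)]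
  have e2 : (Set.univ.pi s).indicator (dens c) =
      fun g : ι → ℝ => ∏ i, (s i).indicator (rho c) (g i) := by
    funext g
    by_cases h : g ∈ Set.univ.pi s
    · rw [Set.indicator_of_mem h]
      unfold dens
      refine Finset.prod_congr rfl fun i _ => ?_
      rw [Set.indicator_of_mem (h i (Set.mem_univ i))]
    · rw [Set.indicator_of_notMem h]
      rw [Set.mem_univ_pi] at h
      push Not at h
      obtain ⟨i, hi⟩ := h
      exact (Finset.prod_eq_zero (Finset.mem_univ i) (Set.indicator_of_notMem hi _)).symm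
  rw [e2, integral_fintype_prod_eq_prod (fun i => (s i).indicator (rho c)),
    ENNReal.ofReal_prod_of_nonneg fun i _ => integral_nonneg fun y =>
      Set.indicator_nonneg (fun y _ => rho_nonneg hc y) y]
  refine Finset.prod_congr rfl fun i _ => ?_
  rw [integral_indicator (hs i)]
  exact (map_eq hc (hs i)).symm

lemma int_dens_sq (c : ℝ) :
    ∫ g, dens c g ^ 2 ∂(Measure.pi fun _ : ι => gaussianReal 0 1) =
      (∫ y, rho c y ^ 2 ∂(gaussianReal 0 1)) ^ Fintype.card ι := by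
  have e : (fun g : ι → ℝ => dens c g ^ 2) = fun g => ∏ i, rho c (g i) ^ 2 := by
    funext g
    unfold dens
    rw [Finset.prod_pow]
  rw [e, integral_fintype_prod_eq_prod (fun _ : ι => fun y => rho c y ^ 2), Finset.prod_const,
    Finset.card_univ]

/-- Cauchy-Schwarz for the probability of a scaled event -/
theorem scale_sq {d : ℝ} (h0 : 0 ≤ d) (h1 : d ≤ 1 / 4) {A : Set (ι → ℝ)} (hA : MeasurableSet A) :
    ((Measure.pi fun _ : ι => gaussianReal 0 1).real
        {g | (fun i => (1 - d) * g i) ∈ A}) ^ 2 ≤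
      Real.exp (4 * d ^ 2) ^ Fintype.card ι *
        (Measure.pi fun _ : ι => gaussianReal 0 1).real A := by
  set P : Measure (ι → ℝ) := Measure.pi fun _ : ι => gaussianReal 0 1 with hP
  have : IsProbabilityMeasure P := by rw [hP]; infer_instance
  have hc : (0 : ℝ) < 1 - d := by linarith
  have hc1 : 1 - d ≤ 1 := by linarith
  have hm : Measurable (fun (g : ι → ℝ) (i : ι) => (1 - d) * g i) := by fun_prop
  have e1 : P.real {g | (fun i => (1 - d) * g i) ∈ A} = ∫ g in A, dens (1 - d) g ∂P := by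
    have e2 : P {g | (fun i => (1 - d) * g i) ∈ A} = (P.map fun g i => (1 - d) * g i) A :=
      (Measure.map_apply hm hA).symm
    rw [Measure.real, e2, hP, pi_scaled hc hc1, withDensity_apply _ hA,
      ← ofReal_integral_eq_lintegral_ofReal (integrable_dens hc hc1).integrableOn
        (Filter.Eventually.of_forall fun g => dens_nonneg hc g),
      ENNReal.toReal_ofReal (integral_nonneg fun g => dens_nonneg hc g)]
  have hI : Integrable (dens (1 - d)) P := integrable_dens hc hc1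
  have hI2 : Integrable (fun g => dens (1 - d) g ^ 2) P := integrable_dens_sq hc hc1
  have hK : ∫ g, dens (1 - d) g ^ 2 ∂P ≤ Real.exp (4 * d ^ 2) ^ Fintype.card ι := by
    rw [hP, int_dens_sq]
    exact pow_le_pow_left₀ (integral_nonneg fun y => sq_nonneg _) (int_rho_sq_le h0 h1) _
  rw [e1]
  set b := ∫ g in A, dens (1 - d) g ∂P with hb
  have hq : ∀ t : ℝ, 0 ≤ (∫ g, dens (1 - d) g ^ 2 ∂P) - 2 * t * b + t ^ 2 * P.real A := by
    intro t
    have h2 : (∫ g, dens (1 - d) g ^ 2 ∂P) - 2 * t * b + t ^ 2 * P.real A =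
        ∫ g, (dens (1 - d) g - t * A.indicator 1 g) ^ 2 ∂P := by
      have e3 : (fun g => (dens (1 - d) g - t * A.indicator 1 g) ^ 2) = fun g =>
          dens (1 - d) g ^ 2 - 2 * t * A.indicator (dens (1 - d)) g +
            t ^ 2 * A.indicator (1 : (ι → ℝ) → ℝ) g := by
        funext g
        by_cases h : g ∈ A
        · simp only [Set.indicator_of_mem h, Pi.one_apply]; ring
        · simp only [Set.indicator_of_notMem h]; ring
      have i1 : Integrable (fun g => 2 * t * A.indicator (dens (1 - d)) g) P :=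
        (hI.indicator hA).const_mul _
      have i2 : Integrable (fun g => t ^ 2 * A.indicator (1 : (ι → ℝ) → ℝ) g) P :=
        ((integrable_const (1 : ℝ)).indicator hA).const_mul _
      have e4 : ∫ g, (dens (1 - d) g ^ 2 - 2 * t * A.indicator (dens (1 - d)) g +
            t ^ 2 * A.indicator (1 : (ι → ℝ) → ℝ) g) ∂P =
          (∫ g, (dens (1 - d) g ^ 2 - 2 * t * A.indicator (dens (1 - d)) g) ∂P) +
            ∫ g, t ^ 2 * A.indicator (1 : (ι → ℝ) → ℝ) g ∂P := integral_add (hI2.sub i1) i2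
      rw [e3, e4, integral_sub hI2 i1, integral_const_mul, integral_const_mul,
        integral_indicator hA, integral_indicator_one hA]
    rw [h2]
    exact integral_nonneg fun g => sq_nonneg _
  have hbn : 0 ≤ b := integral_nonneg fun g => dens_nonneg hc g
  have hA0 : 0 ≤ P.real A := measureReal_nonneg
  rcases hA0.eq_or_lt with h | h
  · have h3 : b = 0 := by
      rw [hb]
      refine setIntegral_measure_zero _ ?_
      have := h.symm
      rw [Measure.real, ENNReal.toReal_eq_zero_iff] at this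
      exact this.resolve_right (measure_ne_top _ _)
    rw [h3, ← h]
    simp
  · have h3 := hq (b / P.real A)
    have h4 : (∫ g, dens (1 - d) g ^ 2 ∂P) - 2 * (b / P.real A) * b +
        (b / P.real A) ^ 2 * P.real A = (∫ g, dens (1 - d) g ^ 2 ∂P) - b ^ 2 / P.real A := by
      field_simp
      ring
    rw [h4] at h3
    have h5 : b ^ 2 / P.real A ≤ ∫ g, dens (1 - d) g ^ 2 ∂P := by linarith
    rw [div_le_iff₀ h] at h5
    exact h5.trans (mul_le_mul_of_nonneg_right hK hA0)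

end pi

lemma card_pair_le (n : ℕ) : 2 * Fintype.card (Pair n) ≤ n ^ 2 := by
  have h : Function.Injective (fun x : Pair n ⊕ Pair n =>
      (match x with
        | Sum.inl p => p.1
        | Sum.inr p => (p.1.2, p.1.1) : Fin n × Fin n)) := by
    rintro (⟨p, hp⟩ | ⟨p, hp⟩) (⟨q, hq⟩ | ⟨q, hq⟩) h
    · simp only at h
      subst h; rfl
    · simp only at h
      subst h
      exact absurd hp (not_lt.2 hq.le)
    · simp only at h
      subst h
      exact absurd hp (not_lt.2 hq.le)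
    · simp only [Prod.mk.injEq] at h
      have : p = q := Prod.ext h.2 h.1
      subst this; rfl
  have h2 := Fintype.card_le_of_injective _ h
  rw [Fintype.card_sum, Fintype.card_prod, Fintype.card_fin] at h2
  calc 2 * Fintype.card (Pair n) = Fintype.card (Pair n) + Fintype.card (Pair n) := two_mul _
    _ ≤ n * n := h2
    _ = n ^ 2 := (sq n).symm

theorem scale_prob {n : ℕ} {d : ℝ} (h0 : 0 ≤ d) (h1 : d ≤ 1 / 4) {A : Set (Pair n → ℝ)}
    (hA : MeasurableSet A) :
    ((disorder n).real {g | (fun p => (1 - d) * g p) ∈ A}) ^ 2 *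
      Real.exp (-(2 * d ^ 2 * n ^ 2)) ≤ (disorder n).real A := by
  have h := scale_sq (ι := Pair n) h0 h1 hA
  have h2 : Real.exp (4 * d ^ 2) ^ Fintype.card (Pair n) ≤ Real.exp (2 * d ^ 2 * n ^ 2) := by
    rw [← Real.exp_nat_mul]
    refine Real.exp_le_exp.2 ?_
    have h3 : (2 : ℝ) * (Fintype.card (Pair n) : ℝ) ≤ (n : ℝ) ^ 2 := by
      exact_mod_cast card_pair_le n
    nlinarith [sq_nonneg d]
  have h3 : (0 : ℝ) ≤ (disorder n).real A := measureReal_nonneg
  rw [Real.exp_neg, mul_inv_le_iff₀ (Real.exp_pos _)]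
  calc _ ≤ Real.exp (4 * d ^ 2) ^ Fintype.card (Pair n) * (disorder n).real A := h
    _ ≤ Real.exp (2 * d ^ 2 * n ^ 2) * (disorder n).real A := by gcongr
    _ = _ := mul_comm _ _

end Vale.Agent.P146.R2.H639
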