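import Vale.Agent.P146.H605.Low
import Vale.Agent.P146.R2.H639.ScaleB

/-!
# P146: lower bound for the probability that the free energy is smaller than its mean by a
linear amount
-/

open MeasureTheory ProbabilityTheory

namespace Vale.Agent.P146.R2.H639

open Vale.Agent.P146 Vale.Agent.P146.Ub.Cv Vale.Agent.P146.H605

lemma freeEnergy_zero (n : ℕ) (β : ℝ) : freeEnergy n β 0 = n * Real.log 2 := by
  unfold freeEnergy partitionFn hamiltonian
  simp

lemma free_scale_le (n : ℕ) (β : ℝ) {d : ℝ} (h0 : 0 ≤ d) (h1 : d ≤ 1) (g : Pair n → ℝ) :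
    freeEnergy n β (fun p => (1 - d) * g p) ≤
      (1 - d) * freeEnergy n β g + d * (n * Real.log 2) := by
  have h := (convex_freeEnergy n β).2 (Set.mem_univ g) (Set.mem_univ (0 : Pair n → ℝ))
    (sub_nonneg.2 h1) h0 (by ring)
  have e : (1 - d) • g + d • (0 : Pair n → ℝ) = fun p => (1 - d) * g p := by
    funext p
    simp
  rw [e, freeEnergy_zero] at h
  simpa using h

theorem low_core {n : ℕ} {β p s : ℝ} (hp : Real.log 2 < p) (hs0 : 0 ≤ s)
    (hs1 : s ≤ (p - Real.log 2) / 8)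
    (hprob : 7 / 8 ≤ (disorder n).real {g | freeEnergy n β g ≤ n * (p + s)}) :
    49 / 64 * Real.exp (-(8 * s ^ 2 * n ^ 2 / (p - Real.log 2) ^ 2)) ≤
      (disorder n).real {g | freeEnergy n β g ≤ n * (p - s)} := by
  have hq : 0 < p - Real.log 2 := sub_pos.2 hp
  obtain ⟨q, hqd⟩ : ∃ q, q = p - Real.log 2 := ⟨_, rfl⟩
  rw [← hqd] at hq hs1 ⊢
  obtain ⟨d, hd⟩ : ∃ d, d = 2 * s / q := ⟨_, rfl⟩
  have hd0 : 0 ≤ d := by rw [hd]; positivity
  have hd1 : d ≤ 1 / 4 := by
    rw [hd, div_le_iff₀ hq]; linarith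
  have hdq : d * q = 2 * s := by rw [hd]; field_simp
  have hm : MeasurableSet {g : Pair n → ℝ | freeEnergy n β g ≤ n * (p - s)} :=
    measurableSet_le (freeEnergy_dom n β).cont.measurable measurable_const
  have h := scale_prob hd0 hd1 hm
  have hsub : {g : Pair n → ℝ | freeEnergy n β g ≤ n * (p + s)} ⊆
      {g | (fun p => (1 - d) * g p) ∈ {g : Pair n → ℝ | freeEnergy n β g ≤ n * (p - s)}} := by
    intro g hg
    simp only [Set.mem_setOf_eq] at hg ⊢
    have h2 := free_scale_le n β hd0 (by linarith) g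
    have hn0 : (0 : ℝ) ≤ n := Nat.cast_nonneg n
    have h3 : (1 - d) * freeEnergy n β g ≤ (1 - d) * (n * (p + s)) :=
      mul_le_mul_of_nonneg_left hg (by linarith)
    have h4 : (1 - d) * (n * (p + s)) + d * (n * Real.log 2) =
        n * (p + s - d * q - d * s) := by rw [hqd]; ring
    have h5 : n * (p + s - d * q - d * s) ≤ n * (p - s) := by
      refine mul_le_mul_of_nonneg_left ?_ hn0
      rw [hdq]
      nlinarith [mul_nonneg hd0 hs0]
    linarith
  have hfin : (disorder n).real {g : Pair n → ℝ | freeEnergy n β g ≤ n * (p + s)} ≤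
      (disorder n).real {g | (fun p => (1 - d) * g p) ∈
        {g : Pair n → ℝ | freeEnergy n β g ≤ n * (p - s)}} := by
    have : IsProbabilityMeasure (disorder n) := by unfold disorder; infer_instance
    exact measureReal_mono hsub
  have h6 : (49 : ℝ) / 64 ≤ ((disorder n).real {g | (fun p => (1 - d) * g p) ∈
        {g : Pair n → ℝ | freeEnergy n β g ≤ n * (p - s)}}) ^ 2 := by
    calc (49 : ℝ) / 64 = (7 / 8) ^ 2 := by norm_num
      _ ≤ _ := pow_le_pow_left₀ (by norm_num) (hprob.trans hfin) 2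
  have e : 2 * d ^ 2 * (n : ℝ) ^ 2 = 8 * s ^ 2 * n ^ 2 / q ^ 2 := by
    rw [hd]; field_simp; ring
  rw [e] at h
  refine le_trans ?_ h
  gcongr

lemma cheb {n : ℕ} {β : ℝ} {c V : ℝ} (hc : 0 < c) (hV : Var[freeEnergy n β; disorder n] ≤ V) :
    1 - V / c ^ 2 ≤ (disorder n).real
      {g | freeEnergy n β g ≤ (∫ g, freeEnergy n β g ∂(disorder n)) + c} := by
  have : IsProbabilityMeasure (disorder n) := by unfold disorder; infer_instance
  have hd := freeEnergy_dom n β
  have hm : MemLp (freeEnergy n β) 2 (disorder n) := by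
    have h : MemLp (freeEnergy n β) 2 (gpi (Pair n)) := by
      rw [memLp_two_iff_integrable_sq hd.cont.aestronglyMeasurable]
      exact (hd.pow 2).integrable
    exact h
  have h := meas_ge_le_variance_div_sq hm hc
  obtain ⟨E, hE⟩ : ∃ E, E = ∫ g, freeEnergy n β g ∂(disorder n) := ⟨_, rfl⟩
  rw [← hE] at h ⊢
  have hme : MeasurableSet {g : Pair n → ℝ | freeEnergy n β g ≤ E + c} :=
    measurableSet_le hd.cont.measurable measurable_const
  have h2 : (disorder n).real {g : Pair n → ℝ | freeEnergy n β g ≤ E + c}ᶜ ≤ V / c ^ 2 := by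
    have hsub : {g : Pair n → ℝ | freeEnergy n β g ≤ E + c}ᶜ ⊆
        {g | c ≤ |freeEnergy n β g - E|} := by
      intro g hg
      simp only [Set.mem_compl_iff, Set.mem_setOf_eq, not_le] at hg ⊢
      exact (by linarith : c ≤ freeEnergy n β g - E).trans (le_abs_self _)
    have h3 := (measure_mono hsub).trans h
    have h4 := ENNReal.toReal_mono ENNReal.ofReal_ne_top h3
    rw [ENNReal.toReal_ofReal (div_nonneg (variance_nonneg _ _) (sq_nonneg _))] at h4
    refine (show _ ≤ _ from h4).trans ?_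
    gcongr
  rw [probReal_compl_eq_one_sub hme] at h2
  linarith

/-- the lower bound, with the variance bound as an argument -/
theorem low_prob' {n : ℕ} {β p s : ℝ} (hb : 0 < β) (hp : Real.log 2 < p) (hn : 1 ≤ n)
    (hV : Var[freeEnergy n β; disorder n] ≤ β ^ 2 * n / 2)
    (hE : ∫ g, freeEnergy n β g ∂(disorder n) ≤ n * p)
    (hs : 2 * β / Real.sqrt n ≤ s) (hs1 : s ≤ (p - Real.log 2) / 8) :
    49 / 64 * Real.exp (-(8 * s ^ 2 * n ^ 2 / (p - Real.log 2) ^ 2)) ≤
      (disorder n).real {g | freeEnergy n β g ≤ n * (p - s)} := by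
  have : IsProbabilityMeasure (disorder n) := by unfold disorder; infer_instance
  have hn0 : (0 : ℝ) < n := by exact_mod_cast hn
  have hs0 : 0 < s := lt_of_lt_of_le (by positivity) hs
  refine low_core hp hs0.le hs1 ?_
  have h := cheb (c := n * s) (by positivity) hV
  have h2 : {g : Pair n → ℝ | freeEnergy n β g ≤
      (∫ g, freeEnergy n β g ∂(disorder n)) + n * s} ⊆ {g | freeEnergy n β g ≤ n * (p + s)} := by
    intro g hg
    simp only [Set.mem_setOf_eq] at hg ⊢
    linarith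
  refine le_trans ?_ (h.trans (measureReal_mono h2))
  have h3 : 4 * β ^ 2 ≤ n * s ^ 2 := by
    have h4 : 2 * β ≤ s * Real.sqrt n := by
      rw [div_le_iff₀ (Real.sqrt_pos.2 hn0)] at hs
      exact hs
    calc 4 * β ^ 2 = (2 * β) ^ 2 := by ring
      _ ≤ (s * Real.sqrt n) ^ 2 := pow_le_pow_left₀ (by positivity) h4 2
      _ = n * s ^ 2 := by rw [mul_pow, Real.sq_sqrt hn0.le]; ring
  have h5 : β ^ 2 * n / 2 / (n * s) ^ 2 ≤ 1 / 8 := by
    rw [div_le_iff₀ (by positivity)]
    nlinarith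
  linarith

/-- the same, in the form of one exponential -/
theorem low_prob'' {n : ℕ} {β p s : ℝ} (hb : 0 < β) (hp : Real.log 2 < p) (hn : 1 ≤ n)
    (hV : Var[freeEnergy n β; disorder n] ≤ β ^ 2 * n / 2)
    (hE : ∫ g, freeEnergy n β g ∂(disorder n) ≤ n * p)
    (hs : 2 * β / Real.sqrt n ≤ s) (hs1 : s ≤ (p - Real.log 2) / 8)
    (hs2 : p - Real.log 2 ≤ s * n) :
    Real.exp (-(9 * s ^ 2 * n ^ 2 / (p - Real.log 2) ^ 2)) ≤
      (disorder n).real {g | freeEnergy n β g ≤ n * (p - s)} := by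
  refine le_trans ?_ (low_prob' hb hp hn hV hE hs hs1)
  have hq : 0 < p - Real.log 2 := sub_pos.2 hp
  obtain ⟨q, hqd⟩ : ∃ q, q = p - Real.log 2 := ⟨_, rfl⟩
  rw [← hqd] at hq hs2 ⊢
  have h1 : 1 ≤ s ^ 2 * n ^ 2 / q ^ 2 := by
    rw [le_div_iff₀ (by positivity), one_mul, ← mul_pow]
    exact pow_le_pow_left₀ hq.le hs2 2
  have e : -(9 * s ^ 2 * (n : ℝ) ^ 2 / q ^ 2) =
      -(s ^ 2 * n ^ 2 / q ^ 2) + -(8 * s ^ 2 * n ^ 2 / q ^ 2) := by ring
  rw [e, Real.exp_add]
  refine mul_le_mul_of_nonneg_right ?_ (Real.exp_pos _).le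
  have h2 : Real.exp (-(s ^ 2 * n ^ 2 / q ^ 2)) ≤ Real.exp (-1) :=
    Real.exp_le_exp.2 (by linarith)
  have h3 : Real.exp (-1) < 49 / 64 := by
    rw [Real.exp_neg, inv_lt_comm₀ (Real.exp_pos _) (by norm_num)]
    have := Real.exp_one_gt_d9
    linarith
  linarith

end Vale.Agent.P146.R2.H639
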