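import Vale.Agent.P146.R2.H952.Sharp
import Vale.Agent.P146.R2.H639.LowB

/-!
# P146: lower bound for the lower tail of the free energy at linear distances
-/

open MeasureTheory ProbabilityTheory

namespace Vale.Agent.P146.R2.H639

open Vale.Agent.P146

theorem low_prob {β p : ℝ} (hb : 1 < β) (hp : Real.log 2 < p) {n : ℕ} (hn : 1 ≤ n)
    (hE : ∫ g, freeEnergy n β g ∂(disorder n) ≤ n * p) {s : ℝ}
    (hs : 2 * β / Real.sqrt n ≤ s) (hs1 : s ≤ (p - Real.log 2) / 8)
    (hn2 : p - Real.log 2 ≤ 2 * β * Real.sqrt n) :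
    Real.exp (-(9 * s ^ 2 * n ^ 2 / (p - Real.log 2) ^ 2)) ≤
      (disorder n).real {g | freeEnergy n β g ≤ n * (p - s)} := by
  refine low_prob'' (by linarith) hp hn (H952.var_le_lin n β hn) hE hs hs1 (hn2.trans ?_)
  have hn0 : (0 : ℝ) < n := by exact_mod_cast hn
  rw [div_le_iff₀ (Real.sqrt_pos.2 hn0)] at hs
  calc 2 * β * Real.sqrt n ≤ s * Real.sqrt n * Real.sqrt n := by gcongr
    _ = s * n := by rw [mul_assoc, Real.mul_self_sqrt hn0.le]

/-- the same for all large `n` -/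
theorem low_prob_eventually {β p : ℝ} (hb : 1 < β) (hp : Real.log 2 < p)
    (hE : ∀ n : ℕ, 1 ≤ n → ∫ g, freeEnergy n β g ∂(disorder n) ≤ n * p) :
    ∀ᶠ n : ℕ in Filter.atTop, ∀ s : ℝ, 2 * β / Real.sqrt n ≤ s → s ≤ (p - Real.log 2) / 8 →
      Real.exp (-(9 * s ^ 2 * n ^ 2 / (p - Real.log 2) ^ 2)) ≤
        (disorder n).real {g | freeEnergy n β g ≤ n * (p - s)} := by
  have h1 : Filter.Tendsto (fun n : ℕ => 2 * β * Real.sqrt n) Filter.atTop Filter.atTop :=
    Filter.Tendsto.const_mul_atTop (by linarith)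
      (Real.tendsto_sqrt_atTop.comp tendsto_natCast_atTop_atTop)
  filter_upwards [h1.eventually_ge_atTop (p - Real.log 2), Filter.eventually_ge_atTop 1]
    with n hn2 hn s hs hs1
  exact low_prob hb hp hn (hE n hn) hs hs1 hn2

end Vale.Agent.P146.R2.H639
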